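import Vale.Agent.H64.BM.Reduce

/-!
# The brightness function is a support function

For a convex body `K` the function `u ↦ ‖u‖ · vol_{n-1}(proj_{u^⊥} K)` is sublinear, hence (by
Hahn-Banach) it is the support function of the projection body.  Consequently Petty's inequality
holds for every convex body whose projection body is a zonotope with at most six generators.
-/

open MeasureTheory Set Module Filter Topology
open scoped Pointwise ENNReal

namespace Vale.Agent.H64

variable {E : Type*} [NormedAddCommGroup E] [InnerProductSpace ℝ E] [FiniteDimensional ℝ E]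
  [MeasurableSpace E] [BorelSpace E]

/-- The brightness function `‖u‖ · vol_{n-1}(proj_{u^⊥} K)`. -/
noncomputable def bright (K : Set E) (u : E) : ℝ := ‖u‖ * (projVolume K u).toReal

theorem bright_nonneg (K : Set E) (u : E) : 0 ≤ bright K u := by
  unfold bright
  positivity

theorem brightE_eq_ofReal {K : Set E} (hK : IsCompact K) (u : E) :
    brightE K u = ENNReal.ofReal (bright K u) := by
  unfold brightE bright
  rw [ENNReal.ofReal_mul (norm_nonneg _), ENNReal.ofReal_toReal (projVolume_lt_top hK u).ne]

theorem bright_smul (K : Set E) (u : E) {c : ℝ} (hc : 0 < c) :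
    bright K (c • u) = c * bright K u := by
  unfold bright
  rw [projVolume_smul K u hc.ne', norm_smul, Real.norm_of_nonneg hc.le, mul_assoc]

theorem bright_neg (K : Set E) (u : E) : bright K (-u) = bright K u := by
  unfold bright
  have h := projVolume_smul K u (c := -1) (by norm_num)
  rw [neg_one_smul] at h
  rw [h, norm_neg]

theorem bright_zero (K : Set E) : bright K 0 = 0 := by simp [bright]

theorem bright_add_le (hE : finrank ℝ E = 3) {K : Set E} (hK : IsCompact K) (hKc : Convex ℝ K)
    {x₀ : E} {ρ : ℝ} (hρ : 0 < ρ) (hball : Metric.closedBall x₀ ρ ⊆ K) (u v : E) :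
    bright K (u + v) ≤ bright K u + bright K v := by
  set R := max ‖u‖ 1 with hRdef
  have hR : 0 < R := lt_of_lt_of_le one_pos (le_max_right _ _)
  have hVfin : volume K ≠ ⊤ := hK.measure_lt_top.ne
  have key : ∀ t : ℝ, 0 < t → bright K (u + v) ≤ bright K u + (1 + t * (R / ρ)) ^ 2 * bright K v := by
    intro t ht
    have hM : IsCompact (K + segment ℝ 0 (t • u)) := hK.add (isCompact_segment' _ _)
    have hMc : Convex ℝ (K + segment ℝ 0 (t • u)) := hKc.add (convex_segment _ _)
    have h1 := volume_add_segment' hK hKc (t • (u + v))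
    have h2 : K + segment ℝ 0 (t • (u + v)) ⊆
        (K + segment ℝ 0 (t • u)) + segment ℝ 0 (t • v) := by
      rintro _ ⟨k, hk, s, hs, rfl⟩
      rw [segment_eq_image'] at hs
      obtain ⟨θ, hθ, rfl⟩ := hs
      refine ⟨k + θ • (t • u), ⟨k, hk, θ • (t • u), ?_, rfl⟩, θ • (t • v), ?_, ?_⟩
      · rw [segment_eq_image']; exact ⟨θ, hθ, by simp⟩
      · rw [segment_eq_image']; exact ⟨θ, hθ, by simp⟩
      · show k + θ • (t • u) + θ • (t • v) = k + (0 + θ • (t • (u + v) - 0))
        module
    have h3 := volume_add_segment' hM hMc (t • v)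
    have h4 : K + segment ℝ 0 (t • u) ⊆ (fun x => x₀ + (1 + t * (R / ρ)) • (x - x₀)) '' K := by
      refine Subset.trans ?_ (sandwich hKc hρ hR hball (L := segment ℝ 0 u) ?_ ht.le)
      · rintro _ ⟨k, hk, s, hs, rfl⟩
        rw [segment_eq_image'] at hs
        obtain ⟨θ, hθ, rfl⟩ := hs
        refine ⟨k, hk, t • (θ • u), ⟨θ • u, ?_, rfl⟩, ?_⟩
        · rw [segment_eq_image']; exact ⟨θ, hθ, by simp⟩
        · show k + t • (θ • u) = k + (0 + θ • (t • u - 0))
          module
      · intro y hy
        rw [segment_eq_image'] at hy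
        obtain ⟨θ, hθ, rfl⟩ := hy
        rw [mem_closedBall_zero_iff]
        simp only [sub_zero, zero_add, norm_smul, Real.norm_eq_abs, abs_of_nonneg hθ.1]
        calc θ * ‖u‖ ≤ 1 * ‖u‖ := by gcongr; exact hθ.2
          _ = ‖u‖ := one_mul _
          _ ≤ R := le_max_left _ _
    have h5 : brightE (K + segment ℝ 0 (t • u)) (t • v) ≤
        ENNReal.ofReal ((1 + t * (R / ρ)) ^ 2) * brightE K (t • v) := by
      calc brightE (K + segment ℝ 0 (t • u)) (t • v)
          ≤ brightE ((fun x => x₀ + (1 + t * (R / ρ)) • (x - x₀)) '' K) (t • v) :=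
            brightE_mono h4 _
        _ = _ := brightE_homothety hE K x₀ (by positivity) _
    have h6 : volume K + brightE K (t • (u + v)) ≤
        volume K + (brightE K (t • u) + ENNReal.ofReal ((1 + t * (R / ρ)) ^ 2) * brightE K (t • v)) := by
      calc volume K + brightE K (t • (u + v)) = volume (K + segment ℝ 0 (t • (u + v))) := h1.symm
        _ ≤ volume ((K + segment ℝ 0 (t • u)) + segment ℝ 0 (t • v)) := measure_mono h2
        _ = volume (K + segment ℝ 0 (t • u)) + brightE (K + segment ℝ 0 (t • u)) (t • v) := h3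
        _ = volume K + brightE K (t • u) + brightE (K + segment ℝ 0 (t • u)) (t • v) := by
            rw [volume_add_segment' hK hKc (t • u)]
        _ ≤ volume K + brightE K (t • u) +
            ENNReal.ofReal ((1 + t * (R / ρ)) ^ 2) * brightE K (t • v) := by gcongr
        _ = _ := add_assoc _ _ _
    have h7 := (ENNReal.add_le_add_iff_left hVfin).mp h6
    rw [brightE_smul K _ ht.le, brightE_smul K _ ht.le, brightE_smul K _ ht.le,
      brightE_eq_ofReal hK, brightE_eq_ofReal hK, brightE_eq_ofReal hK,
      ← ENNReal.ofReal_mul ht.le, ← ENNReal.ofReal_mul ht.le, ← ENNReal.ofReal_mul ht.le,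
      ← ENNReal.ofReal_mul (by positivity),
      ← ENNReal.ofReal_add (mul_nonneg ht.le (bright_nonneg _ _))
        (mul_nonneg (by positivity) (mul_nonneg ht.le (bright_nonneg _ _)))] at h7
    have h8 := (ENNReal.ofReal_le_ofReal_iff (add_nonneg (mul_nonneg ht.le (bright_nonneg _ _))
        (mul_nonneg (by positivity) (mul_nonneg ht.le (bright_nonneg _ _))))).mp h7
    have h9 : t * bright K (u + v) ≤ t * (bright K u + (1 + t * (R / ρ)) ^ 2 * bright K v) := by
      calc t * bright K (u + v) ≤ _ := h8
        _ = _ := by ring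
    exact le_of_mul_le_mul_left h9 ht
  have hlim : Tendsto (fun t : ℝ => bright K u + (1 + t * (R / ρ)) ^ 2 * bright K v) (𝓝[>] 0)
      (𝓝 (bright K u + (1 + 0 * (R / ρ)) ^ 2 * bright K v)) :=
    (Continuous.tendsto (by fun_prop) 0).mono_left nhdsWithin_le_nhds
  have := ge_of_tendsto hlim (eventually_nhdsWithin_of_forall fun t ht => key t ht)
  simpa using this

/-- The brightness function is attained on the projection body (Hahn-Banach). -/
theorem exists_mem_projBody_inner_eq (hE : finrank ℝ E = 3) {K : Set E} (hK : IsCompact K)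
    (hKc : Convex ℝ K) {x₀ : E} {ρ : ℝ} (hρ : 0 < ρ) (hball : Metric.closedBall x₀ ρ ⊆ K)
    (u₀ : E) : ∃ x ∈ projBody K, inner ℝ x u₀ = bright K u₀ := by
  by_cases hu : u₀ = 0
  · subst hu
    refine ⟨0, ?_, by simp [bright_zero]⟩
    intro u
    rw [inner_zero_left]
    exact bright_nonneg K u
  · let f : E →ₗ.[ℝ] ℝ := LinearPMap.mkSpanSingleton u₀ (bright K u₀) hu
    have hf : ∀ x : f.domain, f x ≤ bright K x := by
      rintro ⟨x, hx⟩
      obtain ⟨c, rfl⟩ := Submodule.mem_span_singleton.mp hx
      have : f ⟨c • u₀, hx⟩ = c • bright K u₀ := LinearPMap.mkSpanSingleton'_apply _ _ _ _ _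
      rw [this, smul_eq_mul]
      rcases lt_trichotomy c 0 with hc | rfl | hc
      · calc c * bright K u₀ ≤ 0 := mul_nonpos_of_nonpos_of_nonneg hc.le (bright_nonneg _ _)
          _ ≤ bright K (c • u₀) := bright_nonneg _ _
      · simp [bright_zero]
      · rw [bright_smul K u₀ hc]
    obtain ⟨g, hg1, hg2⟩ := exists_extension_of_le_sublinear f (bright K)
      (fun c hc x => bright_smul K x hc) (bright_add_le hE hK hKc hρ hball) hf
    refine ⟨(InnerProductSpace.toDual ℝ E).symm (LinearMap.toContinuousLinearMap g), ?_, ?_⟩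
    · intro u
      rw [InnerProductSpace.toDual_symm_apply]
      exact hg2 u
    · rw [InnerProductSpace.toDual_symm_apply]
      have := hg1 ⟨u₀, Submodule.mem_span_singleton_self u₀⟩
      rw [LinearPMap.mkSpanSingleton_apply] at this
      exact this

/-- Petty's inequality for convex bodies whose projection body is a zonotope with at most six
generators. -/
theorem petty_projBody_six (hE : finrank ℝ E = 3) {K : Set E} (hK : IsCompact K)
    (hKc : Convex ℝ K) (hint : (interior K).Nonempty) (hZ : IsSegmentSum 6 (projBody K)) :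
    ENNReal.ofReal (15 / 2) * volume K ^ 2 ≤ volume (projBody K) := by
  obtain ⟨c, hc, hv⟩ := exists_coords hE
  obtain ⟨x₀, hx₀⟩ := hint
  obtain ⟨ε, hε, hεsub⟩ := Metric.isOpen_iff.mp isOpen_interior x₀ hx₀
  have hball : Metric.closedBall x₀ (ε / 2) ⊆ K :=
    (Metric.closedBall_subset_ball (by linarith)).trans (hεsub.trans interior_subset)
  have hρ : 0 < ε / 2 := by linarith
  obtain ⟨p, q, hpq⟩ := hZ
  rw [segmentSum_eq] at hpq
  set c₀ : E := ∑ i, (1 / 2 : ℝ) • (p i + q i) with hc₀
  set w : Fin 6 → E := fun i => (1 / 2 : ℝ) • (q i - p i) with hw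
  have hA : ∀ u : E, bright K u =
      inner ℝ c₀ u + ((List.ofFn w).map fun g => |inner ℝ u g|).sum := by
    intro u
    apply le_antisymm
    · obtain ⟨x, hx, hxu⟩ := exists_mem_projBody_inner_eq hE hK hKc hρ hball u
      rw [hpq] at hx
      obtain ⟨z, hz, rfl⟩ := hx
      rw [zonotope_eq_zonoL] at hz
      have := inner_le_of_mem_zonoL _ hz u
      rw [← hxu, inner_add_left]
      linarith
    · obtain ⟨z, hz, hzu⟩ := exists_mem_zonoL_inner_eq (List.ofFn w) u
      have hx : c₀ + z ∈ projBody K := by
        rw [hpq]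
        exact ⟨z, by rw [zonotope_eq_zonoL]; exact hz, rfl⟩
      have := hx u
      rw [inner_add_left, hzu] at this
      exact this
  have hb : ∀ u : E, ‖u‖ * (projVolume K u).toReal = ∑ i, |inner ℝ (w i) u| := by
    intro u
    have h1 := hA u
    have h2 := hA (-u)
    rw [bright_neg, inner_neg_right] at h2
    have h3 : ((List.ofFn w).map fun g => |inner ℝ (-u) g|).sum =
        ((List.ofFn w).map fun g => |inner ℝ u g|).sum := by
      congr 1
      apply List.map_congr_left
      intro g _
      rw [inner_neg_left, abs_neg]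
    rw [h3] at h2
    have h4 : bright K u = ((List.ofFn w).map fun g => |inner ℝ u g|).sum := by linarith
    show bright K u = _
    rw [h4, List.map_ofFn, List.sum_ofFn]
    refine Finset.sum_congr rfl fun i _ => ?_
    simp only [Function.comp, real_inner_comm]
  exact (petty_brightness_six c hc hv hK hKc hρ hball w hb).2

end Vale.Agent.H64
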