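import Vale.Agent.H64.BM.PL1D

/-!
# The multiplicative Brunn-Minkowski inequality for compact sets

`MBM ν` says `ν ((1-t) A + t B) ≥ ν(A)^(1-t) ν(B)^t` for compact sets.  It holds on the line, is
inherited by products with the line (one-dimensional Prékopa-Leindler inequality applied to the
section volumes) and transfers along measure preserving linear equivalences.
-/

open MeasureTheory Set Pointwise

namespace Vale.Agent.H64

/-- Multiplicative Brunn-Minkowski property of a measure, for compact sets. -/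
def MBM {X : Type*} [AddCommGroup X] [Module ℝ X] [TopologicalSpace X] [MeasurableSpace X]
    (ν : Measure X) : Prop :=
  ∀ (A B M : Set X), IsCompact A → IsCompact B → IsCompact M → ∀ t : ℝ, 0 < t → t < 1 →
    (1 - t) • A + t • B ⊆ M → ν A ^ (1 - t) * ν B ^ t ≤ ν M

theorem mbm_real : MBM (volume : Measure ℝ) := by
  intro A B M hA hB hM t ht0 ht1 hsub
  have h1t : (0 : ℝ) < 1 - t := by linarith
  rcases A.eq_empty_or_nonempty with rfl | hAne
  · simp [ENNReal.zero_rpow_of_pos h1t]
  rcases B.eq_empty_or_nonempty with rfl | hBne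
  · simp [ENNReal.zero_rpow_of_pos ht0]
  calc volume A ^ (1 - t) * volume B ^ t
      ≤ ENNReal.ofReal (1 - t) * volume A + ENNReal.ofReal t * volume B :=
        ennreal_geom_le_arith _ _ ht0 ht1
    _ ≤ volume ((1 - t) • A + t • B) :=
        bm1d_smul hA.measurableSet hB.measurableSet hAne hBne ht0 ht1
    _ ≤ volume M := measure_mono hsub

section step

variable {X : Type*} [NormedAddCommGroup X] [NormedSpace ℝ X] [MeasurableSpace X] [BorelSpace X]
  [SecondCountableTopology X]

/-- The horizontal section of a subset of `X × ℝ` at height `s`. -/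
def hsec (A : Set (X × ℝ)) (s : ℝ) : Set X := (fun x => (x, s)) ⁻¹' A

theorem hsec_subset_fst (A : Set (X × ℝ)) (s : ℝ) : hsec A s ⊆ Prod.fst '' A :=
  fun x hx => ⟨(x, s), hx, rfl⟩

theorem hsec_isCompact {A : Set (X × ℝ)} (hA : IsCompact A) (s : ℝ) : IsCompact (hsec A s) := by
  refine IsCompact.of_isClosed_subset (hA.image continuous_fst) ?_ (hsec_subset_fst A s)
  exact hA.isClosed.preimage (by fun_prop)

theorem MBM.prod_real (ν : Measure X) [SigmaFinite ν] [IsFiniteMeasureOnCompacts ν]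
    (h : MBM ν) : MBM (ν.prod (volume : Measure ℝ)) := by
  intro A B M hA hB hM t ht0 ht1 hsub
  have h1t : (0 : ℝ) < 1 - t := by linarith
  have hfin : ∀ {T : Set (X × ℝ)}, IsCompact T → ∀ s, ν (hsec T s) ≠ ⊤ := fun hT s =>
    (hsec_isCompact hT s).measure_lt_top.ne
  have hmeas : ∀ {T : Set (X × ℝ)}, IsCompact T →
      Measurable fun s => (ν (hsec T s)).toReal := fun hT =>
    (measurable_measure_prodMk_right hT.measurableSet).ennreal_toReal
  have hbdd : ∀ {T : Set (X × ℝ)}, IsCompact T →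
      BddAbove (range fun s => (ν (hsec T s)).toReal) := by
    intro T hT
    refine ⟨(ν (Prod.fst '' T)).toReal, ?_⟩
    rintro _ ⟨s, rfl⟩
    exact ENNReal.toReal_mono (hT.image continuous_fst).measure_lt_top.ne
      (measure_mono (hsec_subset_fst T s))
  have hint : ∀ {T : Set (X × ℝ)}, IsCompact T →
      ∫⁻ s, ENNReal.ofReal ((ν (hsec T s)).toReal) = (ν.prod volume) T := by
    intro T hT
    rw [Measure.prod_apply_symm hT.measurableSet]
    refine lintegral_congr fun s => ?_
    rw [ENNReal.ofReal_toReal (hfin hT s)]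
    rfl
  have key := pl1d (f := fun s => (ν (hsec A s)).toReal) (g := fun s => (ν (hsec B s)).toReal)
    (h := fun s => (ν (hsec M s)).toReal) (hmeas hA) (hmeas hB) (hmeas hM)
    (fun _ => ENNReal.toReal_nonneg) (fun _ => ENNReal.toReal_nonneg)
    (fun _ => ENNReal.toReal_nonneg) (hbdd hA) (hbdd hB) ht0 ht1 ?_
  · rw [hint hA, hint hB, hint hM] at key
    exact key
  · intro x y
    have hs : (1 - t) • hsec A x + t • hsec B y ⊆ hsec M ((1 - t) * x + t * y) := by
      rintro _ ⟨_, ⟨a, ha, rfl⟩, _, ⟨b, hb, rfl⟩, rfl⟩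
      apply hsub
      exact ⟨(1 - t) • (a, x), ⟨(a, x), ha, rfl⟩, t • (b, y), ⟨(b, y), hb, rfl⟩, rfl⟩
    have h2 := h (hsec A x) (hsec B y) (hsec M ((1 - t) * x + t * y)) (hsec_isCompact hA x)
      (hsec_isCompact hB y) (hsec_isCompact hM _) t ht0 ht1 hs
    have h3 := ENNReal.toReal_mono (hfin hM _) h2
    rw [ENNReal.toReal_mul, ← ENNReal.toReal_rpow, ← ENNReal.toReal_rpow] at h3
    exact h3

end step

section transfer

variable {X Y : Type*} [NormedAddCommGroup X] [NormedSpace ℝ X] [MeasurableSpace X]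
  [NormedAddCommGroup Y] [NormedSpace ℝ Y] [MeasurableSpace Y] [BorelSpace Y]

theorem MBM.of_equiv {μ : Measure X} {ν : Measure Y} (e : X ≃L[ℝ] Y)
    (he : MeasurePreserving e μ ν) (h : MBM ν) : MBM μ := by
  intro A B M hA hB hM t ht0 ht1 hsub
  have hmeas : ∀ K : Set X, IsCompact K → μ K = ν (e '' K) := by
    intro K hK
    have hm : MeasurableSet (e '' K) := (hK.image e.continuous).isClosed.measurableSet
    rw [← he.measure_preimage hm.nullMeasurableSet, e.injective.preimage_image]
  rw [hmeas A hA, hmeas B hB, hmeas M hM]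
  apply h (e '' A) (e '' B) (e '' M) (hA.image e.continuous) (hB.image e.continuous)
    (hM.image e.continuous) t ht0 ht1
  rintro _ ⟨_, ⟨_, ⟨p, hp, rfl⟩, rfl⟩, _, ⟨_, ⟨q, hq, rfl⟩, rfl⟩, rfl⟩
  refine ⟨(1 - t) • p + t • q, hsub ⟨(1 - t) • p, ⟨p, hp, rfl⟩, t • q, ⟨q, hq, rfl⟩, rfl⟩, ?_⟩
  simp

end transfer

end Vale.Agent.H64
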