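import Vale.Agent.H64.BM.SegAdd
import Vale.Agent.H64.Petty.SegSum

/-!
# Minkowski's first inequality for a convex body and a zonotope in dimension three

For a compact convex `K ⊆ E` (three-dimensional) containing a ball, and a zonotope
`L = ∑ [-z, z]`, we prove `27 vol(K)^2 vol(L) ≤ 8 (∑ ‖z‖ vol_2(proj_{z^⊥} K))^3`, which is
Minkowski's inequality `V(K,K,L)^3 ≥ vol(K)^2 vol(L)` since `3 V(K,K,L) = 2 ∑ ‖z‖ vol_2(…)`.
-/

open MeasureTheory Set Module Filter Topology
open scoped Pointwise ENNReal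

namespace Vale.Agent.H64

variable {E : Type*} [NormedAddCommGroup E] [InnerProductSpace ℝ E] [FiniteDimensional ℝ E]
  [MeasurableSpace E] [BorelSpace E]

/-- `‖w‖ · vol_{n-1}(proj_{w^⊥} K)` as an extended nonnegative real. -/
noncomputable def brightE (K : Set E) (w : E) : ENNReal := ENNReal.ofReal ‖w‖ * projVolume K w

theorem volume_add_segment' {K : Set E} (hK : IsCompact K) (hc : Convex ℝ K) (w : E) :
    volume (K + segment ℝ 0 w) = volume K + brightE K w :=
  volume_add_segment hK hc w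

theorem projVolume_mono {K₁ K₂ : Set E} (h : K₁ ⊆ K₂) (u : E) :
    projVolume K₁ u ≤ projVolume K₂ u :=
  measure_mono (image_mono h)

theorem brightE_mono {K₁ K₂ : Set E} (h : K₁ ⊆ K₂) (u : E) : brightE K₁ u ≤ brightE K₂ u := by
  unfold brightE
  gcongr
  exact projVolume_mono h u

theorem projVolume_lt_top {K : Set E} (hK : IsCompact K) (u : E) : projVolume K u < ⊤ :=
  (hK.image (Submodule.orthogonalProjectionOnto _).continuous).measure_lt_top

theorem brightE_lt_top {K : Set E} (hK : IsCompact K) (u : E) : brightE K u < ⊤ :=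
  ENNReal.mul_lt_top ENNReal.ofReal_lt_top (projVolume_lt_top hK u)

theorem brightE_zero (K : Set E) : brightE K 0 = 0 := by simp [brightE]

theorem brightE_smul (K : Set E) (w : E) {c : ℝ} (hc : 0 ≤ c) :
    brightE K (c • w) = ENNReal.ofReal c * brightE K w := by
  rcases hc.eq_or_lt with rfl | hc'
  · simp [brightE]
  · unfold brightE
    rw [projVolume_smul K w hc'.ne', norm_smul, Real.norm_of_nonneg hc, ENNReal.ofReal_mul hc,
      mul_assoc]

theorem brightE_image_add_left (c : E) (K : Set E) (w : E) :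
    brightE ((fun x => c + x) '' K) w = brightE K w := by
  unfold brightE
  rw [projVolume_image_add_left]

/-- The projection area of a homothetic copy. -/
theorem projVolume_homothety (hE : finrank ℝ E = 3) (K : Set E) (x₀ : E) {lam : ℝ}
    (_hlam : 0 ≤ lam) {u : E} (hu : u ≠ 0) :
    projVolume ((fun x => x₀ + lam • (x - x₀)) '' K) u =
      ENNReal.ofReal (lam ^ 2) * projVolume K u := by
  have : Fact (finrank ℝ E = 2 + 1) := ⟨hE⟩
  have hH : finrank ℝ ↥(Submodule.span ℝ {u})ᗮ = 2 :=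
    Submodule.finrank_orthogonal_span_singleton hu
  unfold projVolume
  set P := (Submodule.span ℝ {u})ᗮ.orthogonalProjectionOnto with hP
  have himg : P '' ((fun x => x₀ + lam • (x - x₀)) '' K) =
      (fun y => (P x₀ - lam • P x₀) + y) '' (lam • (P '' K)) := by
    rw [image_image, ← image_smul, image_image, image_image]
    refine image_congr fun x _ => ?_
    simp only [map_add, map_smul, map_sub, smul_sub]
    abel
  rw [himg, image_add_left, measure_preimage_add, Measure.addHaar_smul, hH,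
    abs_of_nonneg (by positivity)]

theorem brightE_homothety (hE : finrank ℝ E = 3) (K : Set E) (x₀ : E) {lam : ℝ}
    (hlam : 0 ≤ lam) (w : E) :
    brightE ((fun x => x₀ + lam • (x - x₀)) '' K) w =
      ENNReal.ofReal (lam ^ 2) * brightE K w := by
  by_cases hw : w = 0
  · subst hw
    simp [brightE_zero]
  · unfold brightE
    rw [projVolume_homothety hE K x₀ hlam hw]
    ring

/-- If `K` is convex and contains a ball of radius `ρ` around `x₀`, then `K + s L` lies in a
homothetic copy of `K`. -/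
theorem sandwich {K L : Set E} (hKc : Convex ℝ K) {x₀ : E} {ρ R : ℝ} (hρ : 0 < ρ) (hR : 0 < R)
    (hball : Metric.closedBall x₀ ρ ⊆ K) (hL : L ⊆ Metric.closedBall 0 R) {s : ℝ} (hs : 0 ≤ s) :
    K + s • L ⊆ (fun x => x₀ + (1 + s * (R / ρ)) • (x - x₀)) '' K := by
  rintro _ ⟨k, hk, _, ⟨l, hl, rfl⟩, rfl⟩
  have hcpos : 0 < R / ρ := div_pos hR hρ
  have hbR : (R / ρ)⁻¹ * R = ρ := by field_simp
  obtain ⟨c, hc⟩ : ∃ c : ℝ, c = R / ρ := ⟨_, rfl⟩
  rw [← hc] at hcpos hbR ⊢
  have hlampos : 0 < 1 + s * c := by positivity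
  obtain ⟨a, ha, ha0⟩ : ∃ a : ℝ, (1 + s * c) * a = 1 ∧ 0 ≤ a :=
    ⟨(1 + s * c)⁻¹, mul_inv_cancel₀ hlampos.ne', by positivity⟩
  obtain ⟨b, hb, hb0, hbR'⟩ : ∃ b : ℝ, c * b = 1 ∧ 0 ≤ b ∧ b * R = ρ :=
    ⟨c⁻¹, mul_inv_cancel₀ hcpos.ne', by positivity, hbR⟩
  have hp : x₀ + b • l ∈ K := by
    apply hball
    rw [Metric.mem_closedBall, dist_eq_norm, add_sub_cancel_left, norm_smul,
      Real.norm_of_nonneg hb0]
    have hl' : ‖l‖ ≤ R := by simpa using hL hl
    calc b * ‖l‖ ≤ b * R := by gcongr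
      _ = ρ := hbR'
  refine ⟨a • k + (s * c * a) • (x₀ + b • l),
    hKc hk hp ha0 (by positivity) ?_, ?_⟩
  · rw [← ha]; ring
  · show x₀ + (1 + s * c) • (a • k + (s * c * a) • (x₀ + b • l) - x₀) = k + s • l
    calc x₀ + (1 + s * c) • (a • k + (s * c * a) • (x₀ + b • l) - x₀)
        = x₀ + (((1 + s * c) * a) • k + (s * c * ((1 + s * c) * a)) • x₀ +
            (s * (c * b) * ((1 + s * c) * a)) • l - (1 + s * c) • x₀) := by module
      _ = x₀ + ((1 : ℝ) • k + (s * c * 1) • x₀ + (s * 1 * 1) • l - (1 + s * c) • x₀) := by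
          rw [ha, hb]
      _ = k + s • l := by module

/-- First order upper bound for the volume of `K + s L`, `L` a zonotope. -/
theorem volume_add_zonoL_le (hE : finrank ℝ E = 3) {K : Set E} (hK : IsCompact K)
    (hKc : Convex ℝ K) {x₀ : E} {ρ R : ℝ} (hρ : 0 < ρ) (hR : 0 < R)
    (hball : Metric.closedBall x₀ ρ ⊆ K) {s : ℝ} (hs : 0 ≤ s) :
    ∀ l : List E, zonoL l ⊆ Metric.closedBall 0 R →
      volume (K + s • zonoL l) ≤
        volume K + ENNReal.ofReal (2 * s * (1 + s * (R / ρ)) ^ 2) * (l.map (brightE K)).sum := by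
  intro l
  induction l with
  | nil =>
    intro _
    simp [zonoL_nil]
  | cons z l ih =>
    intro hsub
    have hsub' : zonoL l ⊆ Metric.closedBall 0 R := fun y hy =>
      hsub ⟨0, by simp, y, hy, by simp⟩
    have hM : IsCompact (K + s • zonoL l) := hK.add ((zonoL_isCompact l).smul s)
    have hMc : Convex ℝ (K + s • zonoL l) := hKc.add ((zonoL_convex l).smul s)
    have hset : K + s • zonoL (z :: l) =
        (fun x => -(s • z) + x) '' ((K + s • zonoL l) + segment ℝ 0 ((2 * s) • z)) := by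
      ext x
      constructor
      · rintro ⟨k, hk, _, ⟨_, ⟨t, ht, y, hy, rfl⟩, rfl⟩, rfl⟩
        refine ⟨(k + s • y) + (s * (t + 1)) • z,
          ⟨k + s • y, ⟨k, hk, s • y, ⟨y, hy, rfl⟩, rfl⟩, (s * (t + 1)) • z, ?_, rfl⟩, ?_⟩
        · rw [segment_eq_image']
          refine ⟨(t + 1) / 2, ⟨by linarith [(abs_le.mp ht).1], by linarith [(abs_le.mp ht).2]⟩, ?_⟩
          simp only [sub_zero, zero_add, smul_smul]
          congr 1
          ring
        · show -(s • z) + (k + s • y + (s * (t + 1)) • z) = k + s • (t • z + y)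
          module
      · rintro ⟨_, ⟨_, ⟨k, hk, _, ⟨y, hy, rfl⟩, rfl⟩, q, hq, rfl⟩, rfl⟩
        rw [segment_eq_image'] at hq
        obtain ⟨θ, hθ, rfl⟩ := hq
        refine ⟨k, hk, s • ((2 * θ - 1) • z + y), ⟨(2 * θ - 1) • z + y,
          ⟨2 * θ - 1, abs_le.mpr ⟨by linarith [hθ.1], by linarith [hθ.2]⟩, y, hy, rfl⟩, rfl⟩, ?_⟩
        show k + s • ((2 * θ - 1) • z + y) = -(s • z) + (k + s • y + (0 + θ • ((2 * s) • z - 0)))
        module
    rw [hset, volume_image_add_left, volume_add_segment' hM hMc,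
      brightE_smul _ _ (by positivity : (0 : ℝ) ≤ 2 * s)]
    have hb : brightE (K + s • zonoL l) z ≤
        ENNReal.ofReal ((1 + s * (R / ρ)) ^ 2) * brightE K z := by
      calc brightE (K + s • zonoL l) z
          ≤ brightE ((fun x => x₀ + (1 + s * (R / ρ)) • (x - x₀)) '' K) z :=
            brightE_mono (sandwich hKc hρ hR hball hsub' hs) z
        _ = _ := brightE_homothety hE K x₀ (by positivity) z
    calc volume (K + s • zonoL l) + ENNReal.ofReal (2 * s) * brightE (K + s • zonoL l) z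
        ≤ (volume K + ENNReal.ofReal (2 * s * (1 + s * (R / ρ)) ^ 2) * (l.map (brightE K)).sum) +
            ENNReal.ofReal (2 * s) * (ENNReal.ofReal ((1 + s * (R / ρ)) ^ 2) * brightE K z) :=
          add_le_add (ih hsub') (by gcongr)
      _ = volume K + ENNReal.ofReal (2 * s * (1 + s * (R / ρ)) ^ 2) *
            ((z :: l).map (brightE K)).sum := by
          rw [List.map_cons, List.sum_cons, ENNReal.ofReal_mul (by positivity : (0 : ℝ) ≤ 2 * s)]
          ring

theorem sum_brightE_lt_top {K : Set E} (hK : IsCompact K) (l : List E) :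
    (l.map (brightE K)).sum < ⊤ := by
  induction l with
  | nil => simp
  | cons z l ih =>
    rw [List.map_cons, List.sum_cons]
    exact ENNReal.add_lt_top.mpr ⟨brightE_lt_top hK z, ih⟩

/-- Minkowski's first inequality against a zonotope of the same volume. -/
theorem minkowski_equal (hE : finrank ℝ E = 3) {K : Set E} (hK : IsCompact K)
    (hKc : Convex ℝ K) {x₀ : E} {ρ : ℝ} (hρ : 0 < ρ) (hball : Metric.closedBall x₀ ρ ⊆ K)
    (l : List E) (hV : volume (zonoL l) = volume K) :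
    3 * (volume K).toReal ≤ 2 * ((l.map (brightE K)).sum).toReal := by
  obtain ⟨R₀, hR₀⟩ := (zonoL_isCompact l).isBounded.subset_closedBall (0 : E)
  set R := max R₀ 1 with hRdef
  have hR : 0 < R := lt_of_lt_of_le one_pos (le_max_right _ _)
  have hLR : zonoL l ⊆ Metric.closedBall 0 R :=
    hR₀.trans (Metric.closedBall_subset_closedBall (le_max_left _ _))
  have hVfin : volume K ≠ ⊤ := hK.measure_lt_top.ne
  have hBfin : (l.map (brightE K)).sum ≠ ⊤ := (sum_brightE_lt_top hK l).ne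
  set v := (volume K).toReal with hv
  set b := ((l.map (brightE K)).sum).toReal with hb
  have hv0 : 0 ≤ v := ENNReal.toReal_nonneg
  have hb0 : 0 ≤ b := ENNReal.toReal_nonneg
  have hmbm := mbm_of_finrank_three hE
  have key : ∀ s : ℝ, 0 < s → 3 * v ≤ 2 * (1 + s * (R / ρ)) ^ 2 * b := by
    intro s hs
    have hs1 : 0 < 1 + s := by linarith
    -- lower bound
    have hcomp : IsCompact (K + s • zonoL l) := hK.add ((zonoL_isCompact l).smul s)
    have hsubM : (1 - s / (1 + s)) • K + (s / (1 + s)) • zonoL l ⊆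
        (1 + s)⁻¹ • (K + s • zonoL l) := by
      rintro _ ⟨_, ⟨k, hk, rfl⟩, _, ⟨y, hy, rfl⟩, rfl⟩
      refine ⟨k + s • y, ⟨k, hk, s • y, ⟨y, hy, rfl⟩, rfl⟩, ?_⟩
      have e1 : 1 - s / (1 + s) = (1 + s)⁻¹ := by field_simp; ring
      have e2 : s / (1 + s) = (1 + s)⁻¹ * s := by field_simp
      show (1 + s)⁻¹ • (k + s • y) = (1 - s / (1 + s)) • k + (s / (1 + s)) • y
      rw [e1, e2, smul_add, smul_smul]
    have ht0 : 0 < s / (1 + s) := by positivity
    have ht1 : s / (1 + s) < 1 := by rw [div_lt_one hs1]; linarith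
    have h1 := hmbm K (zonoL l) ((1 + s)⁻¹ • (K + s • zonoL l)) hK (zonoL_isCompact l)
      (hcomp.smul _) (s / (1 + s)) ht0 ht1 hsubM
    rw [hV, Measure.addHaar_smul, hE] at h1
    have h2 : volume K ^ (1 - s / (1 + s)) * volume K ^ (s / (1 + s)) = volume K := by
      rcases eq_or_ne (volume K) 0 with h0 | h0
      · rw [h0, ENNReal.zero_rpow_of_pos ht0]; simp
      · rw [← ENNReal.rpow_add _ _ h0 hVfin]; simp
    rw [h2] at h1
    -- upper bound
    have h3 := volume_add_zonoL_le hE hK hKc hρ hR hball hs.le l hLR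
    have h4 : volume K ≤ ENNReal.ofReal |((1 + s)⁻¹) ^ 3| *
        (volume K + ENNReal.ofReal (2 * s * (1 + s * (R / ρ)) ^ 2) * (l.map (brightE K)).sum) :=
      h1.trans (by gcongr)
    have h5 := ENNReal.toReal_mono (by
      exact ENNReal.mul_ne_top ENNReal.ofReal_ne_top
        (ENNReal.add_ne_top.mpr ⟨hVfin, ENNReal.mul_ne_top ENNReal.ofReal_ne_top hBfin⟩)) h4
    rw [ENNReal.toReal_mul, ENNReal.toReal_add hVfin
      (ENNReal.mul_ne_top ENNReal.ofReal_ne_top hBfin), ENNReal.toReal_mul,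
      ENNReal.toReal_ofReal (abs_nonneg _), ENNReal.toReal_ofReal (by positivity),
      abs_of_nonneg (by positivity)] at h5
    -- h5 : v ≤ (1+s)⁻¹^3 * (v + 2 s (1+s c)^2 b)
    have h6 : (1 + s) ^ 3 * v ≤ v + 2 * s * (1 + s * (R / ρ)) ^ 2 * b := by
      have h7 : ((1 + s)⁻¹) ^ 3 * (1 + s) ^ 3 = 1 := by
        rw [← mul_pow, inv_mul_cancel₀ hs1.ne', one_pow]
      calc (1 + s) ^ 3 * v ≤ (1 + s) ^ 3 * (((1 + s)⁻¹) ^ 3 *
            (v + 2 * s * (1 + s * (R / ρ)) ^ 2 * b)) := by gcongr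
        _ = (((1 + s)⁻¹) ^ 3 * (1 + s) ^ 3) * (v + 2 * s * (1 + s * (R / ρ)) ^ 2 * b) := by ring
        _ = v + 2 * s * (1 + s * (R / ρ)) ^ 2 * b := by rw [h7, one_mul]
    have h8 : s * (3 * v) ≤ s * (2 * (1 + s * (R / ρ)) ^ 2 * b) := by
      have : (1 + 3 * s) * v ≤ (1 + s) ^ 3 * v := by
        apply mul_le_mul_of_nonneg_right _ hv0
        nlinarith [sq_nonneg s, hs.le, mul_nonneg hs.le (sq_nonneg s)]
      nlinarith
    exact le_of_mul_le_mul_left h8 hs
  have hlim : Tendsto (fun s : ℝ => 2 * (1 + s * (R / ρ)) ^ 2 * b) (𝓝[>] 0)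
      (𝓝 (2 * (1 + 0 * (R / ρ)) ^ 2 * b)) :=
    (Continuous.tendsto (by fun_prop) 0).mono_left nhdsWithin_le_nhds
  have := ge_of_tendsto hlim (eventually_nhdsWithin_of_forall fun s hs => key s hs)
  simpa using this

end Vale.Agent.H64
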