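import Vale.Agent.H64.BM.Mink
import Vale.Agent.H64.Petty.TripleSum

/-!
# Class reduction: Petty's inequality for bodies whose projection body is a small zonotope

Minkowski's first inequality against a zonotope, the inequality
`vol(K)^2 vol(Π Π K) ≤ vol(Π K)^3` when `Π K` is a zonotope, and Petty's inequality for convex
bodies whose brightness function is that of a zonotope with at most six generators.
-/

open MeasureTheory Set Module Filter Topology
open scoped Pointwise ENNReal

namespace Vale.Agent.H64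

variable {E : Type*} [NormedAddCommGroup E] [InnerProductSpace ℝ E] [FiniteDimensional ℝ E]
  [MeasurableSpace E] [BorelSpace E]

theorem volume_pos_of_ball {K : Set E} {x₀ : E} {ρ : ℝ} (hρ : 0 < ρ)
    (hball : Metric.closedBall x₀ ρ ⊆ K) : 0 < volume K :=
  lt_of_lt_of_le (Metric.measure_closedBall_pos volume x₀ hρ) (measure_mono hball)

/-- Minkowski's first inequality against a zonotope. -/
theorem minkowski (hE : finrank ℝ E = 3) {K : Set E} (hK : IsCompact K) (hKc : Convex ℝ K)
    {x₀ : E} {ρ : ℝ} (hρ : 0 < ρ) (hball : Metric.closedBall x₀ ρ ⊆ K) (l : List E) :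
    27 * (volume K).toReal ^ 2 * (volume (zonoL l)).toReal ≤
      8 * ((l.map (brightE K)).sum).toReal ^ 3 := by
  have hVfin : volume K ≠ ⊤ := hK.measure_lt_top.ne
  have hLfin : volume (zonoL l) ≠ ⊤ := (zonoL_isCompact l).measure_lt_top.ne
  have hvKpos : 0 < (volume K).toReal :=
    ENNReal.toReal_pos (volume_pos_of_ball hρ hball).ne' hVfin
  have hvL0 : 0 ≤ (volume (zonoL l)).toReal := ENNReal.toReal_nonneg
  have hb0 : 0 ≤ ((l.map (brightE K)).sum).toReal := ENNReal.toReal_nonneg
  rcases hvL0.eq_or_lt with h0 | hvLpos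
  · rw [← h0]
    simp only [mul_zero]
    positivity
  have hKeq : volume K = ENNReal.ofReal (volume K).toReal := (ENNReal.ofReal_toReal hVfin).symm
  have hLeq : volume (zonoL l) = ENNReal.ofReal (volume (zonoL l)).toReal :=
    (ENNReal.ofReal_toReal hLfin).symm
  generalize (volume K).toReal = vK at hvKpos hKeq ⊢
  generalize (volume (zonoL l)).toReal = vL at hvL0 hvLpos hLeq ⊢
  obtain ⟨μ, hμpos, hμ3⟩ : ∃ μ : ℝ, 0 < μ ∧ μ ^ 3 = vK / vL := by
    refine ⟨(vK / vL) ^ ((1 : ℝ) / 3), Real.rpow_pos_of_pos (div_pos hvKpos hvLpos) _, ?_⟩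
    rw [← Real.rpow_natCast, ← Real.rpow_mul (div_pos hvKpos hvLpos).le]
    norm_num
  set f : E →ₗ[ℝ] E := μ • LinearMap.id with hf
  have hfz : ∀ z, f z = μ • z := fun z => by simp [hf]
  have hz : zonoL (l.map f) = μ • zonoL l := by
    rw [← zonoL_map, ← image_smul]
    exact image_congr fun z _ => hfz z
  have hvol : volume (zonoL (l.map f)) = volume K := by
    rw [hz, Measure.addHaar_smul, hE, abs_of_nonneg (by positivity), hμ3, hLeq,
      ← ENNReal.ofReal_mul (by positivity), div_mul_cancel₀ _ hvLpos.ne', hKeq]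
  have h1 := minkowski_equal hE hK hKc hρ hball (l.map f) hvol
  have hsum : ((l.map f).map (brightE K)).sum = ENNReal.ofReal μ * (l.map (brightE K)).sum := by
    rw [List.map_map, ← List.sum_map_mul_left]
    congr 1
    apply List.map_congr_left
    intro z _
    simp only [Function.comp, hfz, brightE_smul K z hμpos.le]
  rw [hsum, ENNReal.toReal_mul, ENNReal.toReal_ofReal hμpos.le, hKeq,
    ENNReal.toReal_ofReal hvKpos.le] at h1
  generalize ((l.map (brightE K)).sum).toReal = b at hb0 h1 ⊢
  have h2 : (3 * vK) ^ 3 ≤ (2 * (μ * b)) ^ 3 := pow_le_pow_left₀ (by positivity) h1 3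
  have h3 : (2 * (μ * b)) ^ 3 = 8 * (vK / vL) * b ^ 3 := by rw [← hμ3]; ring
  rw [h3] at h2
  have h4 : 27 * vK ^ 3 * vL ≤ 8 * vK * b ^ 3 := by
    have := mul_le_mul_of_nonneg_right h2 hvLpos.le
    have e : 8 * (vK / vL) * b ^ 3 * vL = 8 * vK * b ^ 3 := by field_simp
    rw [e] at this
    linarith [this]
  have h5 : vK * (27 * vK ^ 2 * vL) ≤ vK * (8 * b ^ 3) := by
    calc vK * (27 * vK ^ 2 * vL) = 27 * vK ^ 3 * vL := by ring
      _ ≤ 8 * vK * b ^ 3 := h4
      _ = vK * (8 * b ^ 3) := by ring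
  exact le_of_mul_le_mul_left h5 hvKpos

/-- A body containing a ball of radius `ρ` has all projections of area at least `π ρ^2`. -/
theorem projVolume_ge_of_ball (hE : finrank ℝ E = 3) {K : Set E} {x₀ : E} {ρ : ℝ} (hρ : 0 < ρ)
    (hball : Metric.closedBall x₀ ρ ⊆ K) {u : E} (hu : u ≠ 0) :
    ENNReal.ofReal (Real.pi * ρ ^ 2) ≤ projVolume K u := by
  have : Fact (finrank ℝ E = 2 + 1) := ⟨hE⟩
  have hH : finrank ℝ ↥(Submodule.span ℝ {u})ᗮ = 2 :=
    Submodule.finrank_orthogonal_span_singleton hu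
  have hnt : Nontrivial ↥(Submodule.span ℝ {u})ᗮ :=
    Module.nontrivial_of_finrank_pos (R := ℝ) (by rw [hH]; norm_num)
  unfold projVolume
  set P := (Submodule.span ℝ {u})ᗮ.orthogonalProjectionOnto with hP
  have hsub : Metric.ball (P x₀) ρ ⊆ P '' K := by
    intro y hy
    refine ⟨x₀ + ((y - P x₀ : ↥(Submodule.span ℝ {u})ᗮ) : E), hball ?_, ?_⟩
    · rw [Metric.mem_closedBall, dist_eq_norm, add_sub_cancel_left]
      rw [Metric.mem_ball, dist_eq_norm] at hy
      exact hy.le
    · rw [map_add, Submodule.orthogonalProjectionOnto_mem_subspace_eq_self]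
      abel
  have e : (√Real.pi ^ 2 / Real.Gamma (((2 : ℕ) : ℝ) / 2 + 1)) = Real.pi := by
    rw [Real.sq_sqrt Real.pi_pos.le]
    norm_num [Real.Gamma_two]
  calc ENNReal.ofReal (Real.pi * ρ ^ 2) = volume (Metric.ball (P x₀) ρ) := by
        rw [InnerProductSpace.volume_ball, hH, e, ← ENNReal.ofReal_pow hρ.le,
          ← ENNReal.ofReal_mul (by positivity), mul_comm]
    _ ≤ volume (P '' K) := measure_mono hsub

theorem volume_projBody_pos (hE : finrank ℝ E = 3) {K : Set E} (hK : IsCompact K) {x₀ : E}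
    {ρ : ℝ} (hρ : 0 < ρ) (hball : Metric.closedBall x₀ ρ ⊆ K) : 0 < volume (projBody K) := by
  have hsub : Metric.closedBall (0 : E) (Real.pi * ρ ^ 2) ⊆ projBody K := by
    intro x hx u
    rw [mem_closedBall_zero_iff] at hx
    by_cases hu : u = 0
    · subst hu
      simp
    · have h1 := projVolume_ge_of_ball hE hρ hball hu
      have h2 : Real.pi * ρ ^ 2 ≤ (projVolume K u).toReal :=
        (ENNReal.ofReal_le_iff_le_toReal (projVolume_lt_top hK u).ne).mp h1
      calc inner ℝ x u ≤ ‖x‖ * ‖u‖ := real_inner_le_norm x u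
        _ ≤ (Real.pi * ρ ^ 2) * ‖u‖ := by gcongr
        _ = ‖u‖ * (Real.pi * ρ ^ 2) := mul_comm _ _
        _ ≤ ‖u‖ * (projVolume K u).toReal := by gcongr
  exact lt_of_lt_of_le (Metric.measure_closedBall_pos volume 0 (by positivity))
    (measure_mono hsub)

theorem ofReal_list_sum {α : Type*} (f : α → ℝ) (hf : ∀ a, 0 ≤ f a) (l : List α) :
    (l.map fun a => ENNReal.ofReal (f a)).sum = ENNReal.ofReal ((l.map f).sum) := by
  induction l with
  | nil => simp
  | cons a l ih =>
    rw [List.map_cons, List.sum_cons, List.map_cons, List.sum_cons, ih,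
      ENNReal.ofReal_add (hf a) (List.sum_nonneg (by simp [hf]))]

section coords

variable (c : E ≃ₗ[ℝ] (Fin 3 → ℝ))
  (hc : ∀ x y : E, inner ℝ x y = dot3 (c x) (c y))
  (hv : ∀ S : Set E, volume (c '' S) = volume S)

include hc hv in
/-- If the brightness function of `K` is the support function of the zonotope generated by
`l'`, then `Π K` is that zonotope and `vol(K)^2 vol(Π Π K) ≤ vol(Π K)^3`. -/
theorem class_reduction {K : Set E} (hK : IsCompact K) (hKc : Convex ℝ K) {x₀ : E} {ρ : ℝ}
    (hρ : 0 < ρ) (hball : Metric.closedBall x₀ ρ ⊆ K) (l' : List E)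
    (hb : ∀ u : E, ‖u‖ * (projVolume K u).toReal = (l'.map fun g => |inner ℝ u g|).sum) :
    projBody K = zonoL l' ∧
      (volume K).toReal ^ 2 * (volume (projBody (zonoL l'))).toReal ≤
        (volume (zonoL l')).toReal ^ 3 := by
  have hE : finrank ℝ E = 3 := by rw [LinearEquiv.finrank_eq c]; simp
  refine ⟨?_, ?_⟩
  · rw [← zonoL_eq_support l']
    ext x
    simp only [projBody, mem_ofPred_eq]
    exact forall_congr' fun u => by rw [hb u]
  · have hS0 : 0 ≤ S3 (l'.map c) := S3_nonneg _
    have hbright : ∀ y : Fin 3 → ℝ, brightE K (c.symm ((4 : ℝ) • y)) =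
        ENNReal.ofReal (4 * ((l'.map c).map fun a => |dot3 y a|).sum) := by
      intro y
      unfold brightE
      rw [← ENNReal.ofReal_toReal (projVolume_lt_top hK _).ne,
        ← ENNReal.ofReal_mul (norm_nonneg _), hb, List.map_map, ← List.sum_map_mul_left]
      congr 2
      apply List.map_congr_left
      intro g _
      simp only [Function.comp]
      rw [hc, LinearEquiv.apply_symm_apply]
      have e : dot3 ((4 : ℝ) • y) (c g) = 4 * dot3 y (c g) := by
        simp only [dot3, Pi.smul_apply, smul_eq_mul]; ring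
      rw [e, abs_mul, abs_of_pos (by norm_num : (0 : ℝ) < 4)]
    have hB : (((pairsL (l'.map c)).map (fun y => c.symm ((4 : ℝ) • y))).map (brightE K)).sum =
        ENNReal.ofReal (12 * S3 (l'.map c)) := by
      rw [List.map_map]
      have : (brightE K ∘ fun y : Fin 3 → ℝ => c.symm ((4 : ℝ) • y)) =
          fun y => ENNReal.ofReal (4 * ((l'.map c).map fun a => |dot3 y a|).sum) := by
        funext y
        exact hbright y
      rw [this, ofReal_list_sum _ (fun y => by
        have := sum_abs_nonneg (fun a => dot3 y a) (l'.map c)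
        positivity), List.sum_map_mul_left, tsum_eq]
      congr 1
      ring
    have h1 := minkowski hE hK hKc hρ hball
      ((pairsL (l'.map c)).map (fun y => c.symm ((4 : ℝ) • y)))
    rw [hB, ENNReal.toReal_ofReal (by positivity), ← projBody_zonoL c hc l'] at h1
    rw [volume_zonoL_E3 c hv l', ENNReal.toReal_ofReal (by positivity)]
    nlinarith [h1]

include hc hv in
/-- Petty's inequality for convex bodies whose brightness function is that of a zonotope with
at most six generators. -/
theorem petty_brightness_six {K : Set E} (hK : IsCompact K) (hKc : Convex ℝ K) {x₀ : E} {ρ : ℝ}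
    (hρ : 0 < ρ) (hball : Metric.closedBall x₀ ρ ⊆ K) (w : Fin 6 → E)
    (hb : ∀ u : E, ‖u‖ * (projVolume K u).toReal = ∑ i, |inner ℝ (w i) u|) :
    projBody K = zonotope w ∧ ENNReal.ofReal (15 / 2) * volume K ^ 2 ≤ volume (projBody K) := by
  have hE : finrank ℝ E = 3 := by rw [LinearEquiv.finrank_eq c]; simp
  have hb' : ∀ u : E, ‖u‖ * (projVolume K u).toReal =
      ((List.ofFn w).map fun g => |inner ℝ u g|).sum := by
    intro u
    rw [hb u, List.map_ofFn, List.sum_ofFn]
    refine Finset.sum_congr rfl fun i _ => ?_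
    simp only [Function.comp, real_inner_comm]
  obtain ⟨hPi, hred⟩ := class_reduction c hc hv hK hKc hρ hball (List.ofFn w) hb'
  rw [← zonotope_eq_zonoL] at hPi hred
  refine ⟨hPi, ?_⟩
  obtain ⟨S, T, hS, hT, hST, hV, hW⟩ := six_data c hc hv w
  have hpos := volume_projBody_pos hE hK hρ hball
  rw [hPi, hV] at hpos
  have hSpos : 0 < S := by
    rcases hS.eq_or_lt with h | h
    · rw [← h] at hpos; simp at hpos
    · exact h
  rw [hW, hV, ENNReal.toReal_ofReal (by positivity), ENNReal.toReal_ofReal (by positivity)]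
    at hred
  have hVfin : volume K ≠ ⊤ := hK.measure_lt_top.ne
  obtain ⟨vK, hvK⟩ : ∃ vK : ℝ, vK = (volume K).toReal := ⟨_, rfl⟩
  rw [← hvK] at hred
  have hvK0 : 0 ≤ vK := by rw [hvK]; exact ENNReal.toReal_nonneg
  have key : 15 / 16 * vK ^ 2 ≤ S := by
    have h1 : vK ^ 2 * T ≤ S ^ 3 := by nlinarith [hred]
    have h2 : S ^ 2 * (15 / 16 * vK ^ 2) ≤ S ^ 2 * S := by
      have : vK ^ 2 * (15 / 16 * S ^ 2) ≤ vK ^ 2 * T :=
        mul_le_mul_of_nonneg_left hST (sq_nonneg vK)
      nlinarith
    exact le_of_mul_le_mul_left h2 (by positivity)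
  rw [hPi, hV, ← ENNReal.ofReal_toReal hVfin, ← hvK, ← ENNReal.ofReal_pow hvK0,
    ← ENNReal.ofReal_mul (by norm_num)]
  exact ENNReal.ofReal_le_ofReal (by nlinarith)

end coords

end Vale.Agent.H64
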