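import Vale.Agent.H64.BM.Split
import Vale.Agent.H64.Petty.Defs

/-!
# Adding a segment to a convex body

For a compact convex set `K` and a vector `w`,
`vol (K + [0, w]) = vol K + ‖w‖ · vol_{n-1}(proj_{w^⊥} K)`.
-/

open MeasureTheory Set Module
open scoped Pointwise ENNReal

namespace Vale.Agent.H64

/-- The length of a compact interval plus the segment `[0, r]`. -/
theorem volume_add_Icc {I : Set ℝ} (hI : IsCompact I) (hc : Convex ℝ I) (hne : I.Nonempty)
    {r : ℝ} (hr : 0 ≤ r) : volume (I + Icc (0 : ℝ) r) = volume I + ENNReal.ofReal r := by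
  have h := eq_Icc_of_connected_compact (hc.isConnected hne) hI
  obtain ⟨a, b, hIab⟩ : ∃ a b : ℝ, I = Icc a b := ⟨_, _, h⟩
  subst hIab
  have hab : a ≤ b := nonempty_Icc.mp hne
  have hsum : Icc a b + Icc 0 r = Icc a (b + r) := by
    ext x
    constructor
    · rintro ⟨p, hp, q, hq, rfl⟩
      exact ⟨by linarith [hp.1, hq.1], by linarith [hp.2, hq.2]⟩
    · intro hx
      refine ⟨min x b, ⟨le_min hx.1 hab, min_le_right _ _⟩, x - min x b,
        ⟨sub_nonneg.mpr (min_le_left _ _), ?_⟩, by ring⟩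
      rcases le_total x b with h1 | h1
      · rw [min_eq_left h1]; simpa using hr
      · rw [min_eq_right h1]; linarith [hx.2]
  rw [hsum, Real.volume_Icc, Real.volume_Icc, ← ENNReal.ofReal_add (sub_nonneg.mpr hab) hr]
  congr 1
  ring

section fiber

variable {X : Type*} [NormedAddCommGroup X] [NormedSpace ℝ X] [MeasurableSpace X] [BorelSpace X]
  [SecondCountableTopology X]

/-- The set `T + {0} × [0, r]`. -/
def addVert (T : Set (X × ℝ)) (r : ℝ) : Set (X × ℝ) :=
  (fun p : (X × ℝ) × ℝ => (p.1.1, p.1.2 + p.2)) '' (T ×ˢ Icc (0 : ℝ) r)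

theorem fib_addVert (T : Set (X × ℝ)) (r : ℝ) (y : X) :
    Prod.mk y ⁻¹' addVert T r = (Prod.mk y ⁻¹' T) + Icc (0 : ℝ) r := by
  ext s
  constructor
  · rintro ⟨⟨⟨x, q⟩, p⟩, ⟨hT, hp⟩, heq⟩
    simp only [Prod.mk.injEq] at heq
    obtain ⟨rfl, rfl⟩ := heq
    exact ⟨q, hT, p, hp, rfl⟩
  · rintro ⟨q, hq, p, hp, rfl⟩
    exact ⟨((y, q), p), ⟨hq, hp⟩, rfl⟩

theorem volume_addVert (ν : Measure X) [SigmaFinite ν] {T : Set (X × ℝ)} (hT : IsCompact T)
    (hc : Convex ℝ T) {r : ℝ} (hr : 0 ≤ r) :
    (ν.prod volume) (addVert T r) =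
      (ν.prod volume) T + ENNReal.ofReal r * ν (Prod.fst '' T) := by
  have hT' : IsCompact (addVert T r) := (hT.prod isCompact_Icc).image (by fun_prop)
  rw [Measure.prod_apply hT'.measurableSet, Measure.prod_apply hT.measurableSet]
  have hP : MeasurableSet (Prod.fst '' T) := (hT.image continuous_fst).measurableSet
  have hpt : ∀ y, volume (Prod.mk y ⁻¹' addVert T r) =
      volume (Prod.mk y ⁻¹' T) + ENNReal.ofReal r * (Prod.fst '' T).indicator 1 y := by
    intro y
    rw [fib_addVert]
    by_cases hy : y ∈ Prod.fst '' T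
    · have hne : (Prod.mk y ⁻¹' T).Nonempty := by
        obtain ⟨⟨y', s⟩, hs, rfl⟩ := hy
        exact ⟨s, hs⟩
      have hcomp : IsCompact (Prod.mk y ⁻¹' T) := by
        refine IsCompact.of_isClosed_subset (hT.image continuous_snd) ?_ ?_
        · exact hT.isClosed.preimage (by fun_prop)
        · exact fun s hs => ⟨(y, s), hs, rfl⟩
      have hconv : Convex ℝ (Prod.mk y ⁻¹' T) := by
        intro a ha b hb α β hα hβ hαβ
        have := hc ha hb hα hβ hαβ
        have e : α • (y, a) + β • (y, b) = (y, α • a + β • b) := by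
          ext
          · simp [← add_smul, hαβ]
          · simp
        rw [e] at this
        exact this
      rw [volume_add_Icc hcomp hconv hne hr, indicator_of_mem hy]
      simp
    · have hemp : Prod.mk y ⁻¹' T = ∅ := by
        ext s
        simp only [mem_preimage, mem_empty_iff_false, iff_false]
        exact fun hs => hy ⟨(y, s), hs, rfl⟩
      rw [hemp, indicator_of_notMem hy]
      simp
  simp_rw [hpt]
  rw [lintegral_add_left (measurable_measure_prodMk_left hT.measurableSet),
    lintegral_const_mul _ (measurable_one.indicator hP), lintegral_indicator_one hP]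

end fiber

variable {E : Type*} [NormedAddCommGroup E] [InnerProductSpace ℝ E] [FiniteDimensional ℝ E]
  [MeasurableSpace E] [BorelSpace E]

theorem isCompact_segment' (x y : E) : IsCompact (segment ℝ x y) := by
  rw [segment_eq_image']
  exact isCompact_Icc.image (by fun_prop)

theorem volume_add_segment_unit {K : Set E} (hK : IsCompact K) (hc : Convex ℝ K) (u : E)
    (hu : ‖u‖ = 1) {r : ℝ} (hr : 0 ≤ r) :
    volume (K + segment ℝ 0 (r • u)) = volume K + ENNReal.ofReal r * projVolume K u := by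
  set e := splitEquiv u hu with he
  have hvol : ∀ S : Set E, IsCompact S → volume S = (volume.prod volume) (e '' S) := by
    intro S hS
    have hm : MeasurableSet (e '' S) := (hS.image e.continuous).isClosed.measurableSet
    rw [← (splitEquiv_measurePreserving u hu).measure_preimage hm.nullMeasurableSet,
      e.injective.preimage_image]
  have himg : e '' (K + segment ℝ 0 (r • u)) = addVert (e '' K) r := by
    ext p
    constructor
    · rintro ⟨_, ⟨k, hk, s, hs, rfl⟩, rfl⟩
      rw [segment_eq_image'] at hs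
      obtain ⟨θ, hθ, rfl⟩ := hs
      refine ⟨((e k), θ * r), ⟨⟨k, hk, rfl⟩, ⟨mul_nonneg hθ.1 hr, ?_⟩⟩, ?_⟩
      · calc θ * r ≤ 1 * r := mul_le_mul_of_nonneg_right hθ.2 hr
          _ = r := one_mul r
      · have : k + (0 + θ • (r • u - 0)) = k + (θ * r) • u := by simp [smul_smul]
        show ((e k).1, (e k).2 + θ * r) = e (k + (0 + θ • (r • u - 0)))
        rw [this, he, splitEquiv_add_smul]
    · rintro ⟨⟨q, p⟩, ⟨⟨k, hk, hkeq⟩, hp⟩, rfl⟩
      refine ⟨k + p • u, ⟨k, hk, p • u, ?_, rfl⟩, ?_⟩
      · rw [segment_eq_image']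
        rcases hr.eq_or_lt with h0 | h0
        · have hp0 : p = 0 := le_antisymm (h0 ▸ hp.2) hp.1
          exact ⟨0, ⟨le_refl _, zero_le_one⟩, by simp [hp0]⟩
        · refine ⟨p / r, ⟨div_nonneg hp.1 hr, (div_le_one h0).mpr hp.2⟩, ?_⟩
          simp [smul_smul, div_mul_cancel₀ _ h0.ne']
      · show e (k + p • u) = (q.1, q.2 + p)
        rw [he, splitEquiv_add_smul, ← he, hkeq]
  rw [hvol _ (hK.add (isCompact_segment' _ _)), himg,
    volume_addVert _ (hK.image e.continuous) (hc.is_linear_image e.isLinear) hr, ← hvol K hK]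
  congr 2
  unfold projVolume
  congr 1
  rw [image_image]
  exact image_congr fun x _ => splitEquiv_fst u hu x

theorem projVolume_congr_span (K : Set E) (S S' : Submodule ℝ E) (h : S = S') :
    (volume : Measure ↥Sᗮ) (Sᗮ.orthogonalProjectionOnto '' K) =
      (volume : Measure ↥S'ᗮ) (S'ᗮ.orthogonalProjectionOnto '' K) := by
  subst h
  rfl

theorem projVolume_smul (K : Set E) (u : E) {c : ℝ} (hc : c ≠ 0) :
    projVolume K (c • u) = projVolume K u :=
  projVolume_congr_span K _ _ (Submodule.span_singleton_smul_eq hc.isUnit u)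

/-- Adding the segment `[0, w]` to a compact convex set. -/
theorem volume_add_segment {K : Set E} (hK : IsCompact K) (hc : Convex ℝ K) (w : E) :
    volume (K + segment ℝ 0 w) = volume K + ENNReal.ofReal ‖w‖ * projVolume K w := by
  by_cases hw : w = 0
  · subst hw
    simp
  · have hn : 0 < ‖w‖ := norm_pos_iff.mpr hw
    have hu : ‖(‖w‖⁻¹ • w)‖ = 1 := by
      rw [norm_smul, norm_inv, norm_norm, inv_mul_cancel₀ hn.ne']
    have hwu : ‖w‖ • (‖w‖⁻¹ • w) = w := by
      rw [smul_smul, mul_inv_cancel₀ hn.ne', one_smul]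
    have h := volume_add_segment_unit hK hc (‖w‖⁻¹ • w) hu hn.le
    rw [hwu] at h
    rw [h, projVolume_smul K w (inv_ne_zero hn.ne')]

end Vale.Agent.H64
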