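import Vale.Agent.H64.BM.MBM

/-!
# Splitting a Euclidean space along a unit vector; Brunn-Minkowski in dimension three

The splitting `E ≃ u^⊥ × ℝ` (this part is copied from helper76, Vale.Agent.H76.Transfer, with
thanks) and the multiplicative Brunn-Minkowski inequality in inner product spaces of dimensions
two and three.
-/

open MeasureTheory Set Module
open scoped Pointwise ENNReal

namespace Vale.Agent.H64

theorem mbm_plane : MBM (volume : Measure (ℝ × ℝ)) :=
  MBM.prod_real (volume : Measure ℝ) mbm_real

theorem mbm_of_finrank_two {V : Type*} [NormedAddCommGroup V] [InnerProductSpace ℝ V]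
    [FiniteDimensional ℝ V] [MeasurableSpace V] [BorelSpace V] (hV : finrank ℝ V = 2) :
    MBM (volume : Measure V) := by
  let b : OrthonormalBasis (Fin 2) ℝ V := (stdOrthonormalBasis ℝ V).reindex (finCongr hV)
  let e : V ≃L[ℝ] ℝ × ℝ :=
    (b.repr.toContinuousLinearEquiv.trans (EuclideanSpace.equiv (Fin 2) ℝ)).trans
      (ContinuousLinearEquiv.finTwoArrow ℝ ℝ)
  have he : MeasurePreserving e volume volume := by
    have h1 := b.measurePreserving_repr
    have h2 := PiLp.volume_preserving_ofLp (Fin 2)
    have h3 := volume_preserving_finTwoArrow ℝ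
    exact h3.comp (h2.comp h1)
  exact MBM.of_equiv e he mbm_plane

variable {E : Type*} [NormedAddCommGroup E] [InnerProductSpace ℝ E] [FiniteDimensional ℝ E]
  [MeasurableSpace E] [BorelSpace E]

/-- The splitting of `E` along a unit vector `u` as `u^⊥ × ℝ`. -/
noncomputable def splitEquiv (u : E) (hu : ‖u‖ = 1) :
    E ≃L[ℝ] ↥(Submodule.span ℝ {u})ᗮ × ℝ :=
  ((Submodule.span ℝ {u}).orthogonalDecomposition.toContinuousLinearEquiv.trans
    (WithLp.prodContinuousLinearEquiv 2 ℝ _ _)).trans
  ((ContinuousLinearEquiv.prodComm ℝ _ _).trans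
    ((ContinuousLinearEquiv.refl ℝ _).prodCongr
      (LinearIsometryEquiv.toSpanUnitSingleton u hu).symm.toContinuousLinearEquiv))

theorem splitEquiv_fst (u : E) (hu : ‖u‖ = 1) (x : E) :
    (splitEquiv u hu x).1 = (Submodule.span ℝ {u})ᗮ.orthogonalProjectionOnto x := by
  simp [splitEquiv]

theorem splitEquiv_measurePreserving (u : E) (hu : ‖u‖ = 1) :
    MeasurePreserving (splitEquiv u hu) volume (volume.prod volume) := by
  have h1 := (Submodule.span ℝ {u}).orthogonalDecomposition.measurePreserving
  have h2 := WithLp.volume_preserving_ofLp (↥(Submodule.span ℝ {u})) (↥(Submodule.span ℝ {u})ᗮ)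
  have h3 : MeasurePreserving (Prod.swap : ↥(Submodule.span ℝ {u}) × ↥(Submodule.span ℝ {u})ᗮ → _)
      (volume.prod volume) (volume.prod volume) := Measure.measurePreserving_swap
  have h4 : MeasurePreserving (LinearIsometryEquiv.toSpanUnitSingleton (𝕜 := ℝ) u hu).symm
      volume volume := (LinearIsometryEquiv.toSpanUnitSingleton (𝕜 := ℝ) u hu).symm.measurePreserving
  have h5 : MeasurePreserving
      (Prod.map (id : ↥(Submodule.span ℝ {u})ᗮ → ↥(Submodule.span ℝ {u})ᗮ)
        (LinearIsometryEquiv.toSpanUnitSingleton (𝕜 := ℝ) u hu).symm) (volume.prod volume)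
      (volume.prod volume) := (MeasurePreserving.id volume).prod h4
  exact h5.comp (h3.comp (h2.comp h1))

/-- The image of `x + r u` under the splitting: only the last coordinate moves. -/
theorem splitEquiv_add_smul (u : E) (hu : ‖u‖ = 1) (x : E) (r : ℝ) :
    splitEquiv u hu (x + r • u) = ((splitEquiv u hu x).1, (splitEquiv u hu x).2 + r) := by
  have hu0 : splitEquiv u hu u = (0, 1) := by
    have h1 : (splitEquiv u hu u).1 = 0 := by
      rw [splitEquiv_fst]
      exact Submodule.orthogonalProjectionOnto_orthogonal_apply_eq_zero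
        (Submodule.mem_span_singleton_self u)
    have h2 : (splitEquiv u hu u).2 = 1 := by
      simp only [splitEquiv, ContinuousLinearEquiv.trans_apply]
      simp
      rw [LinearIsometryEquiv.symm_apply_eq]
      apply Subtype.ext
      rw [LinearIsometryEquiv.toSpanUnitSingleton_apply]
      simp
      exact Submodule.starProjection_eq_self_iff.mpr (Submodule.mem_span_singleton_self u)
    exact Prod.ext h1 h2
  rw [map_add, map_smul, hu0]
  ext <;> simp

/-- Multiplicative Brunn-Minkowski inequality in a three-dimensional Euclidean space. -/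
theorem mbm_of_finrank_three (hE : finrank ℝ E = 3) : MBM (volume : Measure E) := by
  have hnt : Nontrivial E := Module.nontrivial_of_finrank_pos (R := ℝ) (by rw [hE]; norm_num)
  obtain ⟨u, hu⟩ := exists_norm_eq E (zero_le_one' ℝ)
  have hu0 : u ≠ 0 := by
    rintro rfl
    simp at hu
  have : Fact (finrank ℝ E = 2 + 1) := ⟨hE⟩
  have hH : finrank ℝ ↥(Submodule.span ℝ {u})ᗮ = 2 :=
    Submodule.finrank_orthogonal_span_singleton hu0
  have h2 : MBM (volume : Measure ↥(Submodule.span ℝ {u})ᗮ) := mbm_of_finrank_two hH
  have h3 := MBM.prod_real (volume : Measure ↥(Submodule.span ℝ {u})ᗮ) h2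
  exact MBM.of_equiv (splitEquiv u hu) (splitEquiv_measurePreserving u hu) h3

end Vale.Agent.H64
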